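import Mathlib
import Vale.Agent.Lib.P043.helper14.Prime

/-!
# P043: the periodic tiling conjecture for tiles of prime cardinality

`IsTiling A F` says `A ⊕ F = G`, `IsPeriodic A` says `A + h = A` for all `h` in a subgroup of
finite index, and `IsLevelTiling k A F` says that every element of `G` has exactly `k`
representations `a + f` with `a ∈ A`, `f ∈ F`.

1. For every `d`, a finite subset of `ℤ^d` of prime cardinality that tiles `ℤ^d` by translations
   admits a periodic tiling.
2. In every finitely generated abelian group and for every `k`: if a set of prime cardinality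
   admits a covering of level `k`, it admits a periodic covering of level `k` (for `k = 1`, by
   item 5, a set of prime cardinality that tiles admits a periodic tiling).
3. In any abelian group, if `A` covers the group exactly `k` times by the translates of a set `F`
   of prime cardinality `p`, then `A + p • (f - f') = A` for all `f f' ∈ F`.
4. If moreover the group is finitely generated and the differences `f - f'` generate a subgroup
   of finite index, then `A` itself is periodic.
5. A tiling is the same as a covering of level `1`.
-/

namespace Vale.Agent.Results.P043.A_PrimeCardinality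

open Vale.Agent.Lib.P043.helper14

theorem result :
    (∀ (d : ℕ) (F : Finset (Fin d → ℤ)), F.card.Prime →
        (∃ A : Set (Fin d → ℤ), IsTiling A F) →
        ∃ A : Set (Fin d → ℤ), IsTiling A F ∧ IsPeriodic A) ∧
    (∀ (G : Type) [AddCommGroup G] [AddGroup.FG G] (k : ℕ) (F : Finset G), F.card.Prime →
        (∃ A : Set G, IsLevelTiling k A F) →
        ∃ A : Set G, IsLevelTiling k A F ∧ IsPeriodic A) ∧
    (∀ (G : Type) [AddCommGroup G] (k : ℕ) (F : Finset G) (A : Set G), F.card.Prime →
        IsLevelTiling k A F →
        ∀ f ∈ F, ∀ f' ∈ F, ∀ a : G, a + F.card • (f - f') ∈ A ↔ a ∈ A) ∧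
    (∀ (G : Type) [AddCommGroup G] [AddGroup.FG G] (k : ℕ) (F : Finset G) (A : Set G),
        F.card.Prime →
        (AddSubgroup.closure {x : G | ∃ f ∈ F, ∃ f' ∈ F, x = f - f'}).FiniteIndex →
        IsLevelTiling k A F → IsPeriodic A) ∧
    (∀ (G : Type) [AddCommGroup G] (F : Finset G) (A : Set G),
        IsTiling A F ↔ IsLevelTiling 1 A F) := by
  refine ⟨fun d F hp h => ?_, fun G _ _ k F hp h => exists_periodic_level k F hp h,
    fun G _ k F A hp hA f hf f' hf' a => level_invariant F A k hp hA hf hf' a,
    fun G _ _ k F A hp hfi hA => periodic_of_finiteIndex k F A hp hfi hA,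
    fun G _ F A => tiling_iff_level_one A F⟩
  have : AddGroup.FG (Fin d → ℤ) := Module.Finite.iff_addGroup_fg.mp inferInstance
  exact exists_periodic F hp h

end Vale.Agent.Results.P043.A_PrimeCardinality
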