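import Mathlib
import Vale.Agent.Lib.P043.helper14.Cube

/-!
# P043: the Euclidean periodic tiling conjecture for cube clusters of prime cardinality

For a finite `F ⊆ ℤ^d` the cube cluster `cluster F = F + [0,1)^d ⊆ ℝ^d` is a bounded measurable
set of measure `F.card`.  `TilesBy Ω A` says that the translates `Ω + a`, `a ∈ A`, cover `ℝ^d` up
to a null set and pairwise intersect in null sets.

1. For every `d`: if `F.card` is prime and the cube cluster of `F` tiles `ℝ^d` by translations,
   then it has a tiling `B` that covers every point exactly once and is invariant under a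
   subgroup of finite index of `ℤ^d` (a lattice of rank `d`).
2. For every `d` and every nonempty finite `F`: the cube cluster of `F` tiles `ℝ^d` by
   translations if and only if `F` tiles `ℤ^d`.
-/

namespace Vale.Agent.Results.P043.B_PrimeCubeClusters

open Vale.Agent.Lib.P043.helper14

theorem result :
    (∀ (d : ℕ) (F : Finset (Fin d → ℤ)), F.card.Prime →
        (∃ A : Set (Fin d → ℝ), TilesBy (cluster F) A) →
        ∃ B : Set (Fin d → ℝ), TilesBy (cluster F) B ∧
          (∀ y : Fin d → ℝ, ∃! b, b ∈ B ∧ y - b ∈ cluster F) ∧ LatticePeriodic B) ∧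
    (∀ (d : ℕ) (F : Finset (Fin d → ℤ)), F.Nonempty →
        ((∃ A : Set (Fin d → ℝ), TilesBy (cluster F) A) ↔
          ∃ A0 : Set (Fin d → ℤ), IsTiling A0 F)) :=
  ⟨fun _ F hp h => cluster_periodic F hp h,
    fun _ F hF => ⟨tiles_int_of_tiles_real F hF, tiles_real_of_tiles_int F⟩⟩

end Vale.Agent.Results.P043.B_PrimeCubeClusters
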